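import Vale.Agent.P371.Upper
import Vale.Agent.P371.Keller
import Vale.Agent.P371.LoneOne
import Vale.Agent.P371.Bridge

/-!
# P371: the sharp one-dimensional Lieb-Thirring constant for gamma = 1, scalar and matrix potentials

`L_1(m) = L_1^(1) = 4 / (3 √3 π)` for every `m ≥ 1`: the Lieb-Thirring conjecture of 1976 at
`γ = 1` holds for scalar potentials, and matrix potentials have the same constant.
-/

namespace Vale.Agent.Results.P371.GammaOneAllMatrix

open LTh

theorem result :
    ∀ m : ℕ, 0 < m →
      LT 1 m = ENNReal.ofReal (Lone 1) ∧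
      LT 1 m = LT 1 1 ∧
      LT 1 m = ENNReal.ofReal (4 / (3 * Real.sqrt 3 * Real.pi)) := by
  have key : ∀ m : ℕ, 0 < m → LT 1 m = ENNReal.ofReal (Lone 1) := by
    intro m hm
    rw [LT_eq, Lone_eq]
    refine le_antisymm ?_ (LT371.keller_lower (by norm_num) hm)
    rw [LT371.Lone_one']
    exact LT371.LT_one_le m
  intro m hm
  refine ⟨key m hm, ?_, ?_⟩
  · rw [key m hm, key 1 one_pos]
  · rw [key m hm, Lone_eq, LT371.Lone_one']

end Vale.Agent.Results.P371.GammaOneAllMatrix
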