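import Vale.Agent.P371G.FinB
import Vale.Agent.P371.Keller
import Vale.Agent.P371.Bridge

/-!
# P371: the sharp one-dimensional Lieb-Thirring constants, scalar and matrix potentials

`L_γ(m) = L_γ^(1) = 2 ((γ-1/2)/(γ+1/2))^(γ-1/2) L_γ^cl` for all `1/2 < γ < 3/2` and all `m ≥ 1`:
the one-dimensional Lieb-Thirring conjecture of 1976, and the independence of the sharp constant
of the size of the matrix potential.
-/

namespace Vale.Agent.Results.P371.SharpAllGamma

open LTh

theorem result :
    ∀ gam : ℝ, 1 / 2 < gam → gam < 3 / 2 → ∀ m : ℕ, 0 < m →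
      LT gam m = ENNReal.ofReal (Lone gam) ∧ LT gam m = LT gam 1 := by
  intro gam h0 h1
  have key : ∀ m : ℕ, 0 < m → LT gam m = ENNReal.ofReal (Lone gam) := by
    intro m hm
    rw [LT_eq, Lone_eq]
    exact le_antisymm (LTG.LT_le h0 h1 m) (LT371.keller_lower h0 hm)
  intro m hm
  exact ⟨key m hm, by rw [key m hm, key 1 one_pos]⟩

end Vale.Agent.Results.P371.SharpAllGamma
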